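import Vale.Agent.P218.H63.Defs

/-! The Hessian of the distance to the axis on the cylinder of radius `√2`. -/

open MeasureTheory Set Filter Topology
open scoped ENNReal NNReal

noncomputable section

namespace Vale.Agent.P218.CY.H326

open Vale.Agent.P218.H63

/-- the space -/
abbrev E3 := EuclideanSpace ℝ (Fin 3)

/-- coordinate functions -/
def pr (i : Fin 3) : E3 →L[ℝ] ℝ := EuclideanSpace.proj i

@[simp] theorem pr_apply (i : Fin 3) (x : E3) : pr i x = x i := rfl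

/-- the square of the distance to the axis -/
def qq (y : E3) : ℝ := y 0 ^ 2 + y 1 ^ 2

/-- the distance to the axis minus `√2` -/
def w0 (y : E3) : ℝ := √(qq y) - √2

/-- the gradient of `w0` -/
def G0 (y : E3) : E3 := WithLp.toLp 2 ![y 0 / √(qq y), y 1 / √(qq y), 0]

@[simp] theorem G0_zero (y : E3) : G0 y 0 = y 0 / √(qq y) := rfl
@[simp] theorem G0_one (y : E3) : G0 y 1 = y 1 / √(qq y) := rfl
@[simp] theorem G0_two (y : E3) : G0 y 2 = 0 := rfl

theorem inner3 (x y : E3) : inner ℝ x y = x 0 * y 0 + x 1 * y 1 + x 2 * y 2 := by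
  rw [PiLp.inner_apply, Fin.sum_univ_three]
  simp [mul_comm]

theorem hasFDerivAt_pr (i : Fin 3) (x : E3) : HasFDerivAt (fun y : E3 => y i) (pr i) x :=
  (pr i).hasFDerivAt

theorem hasFDerivAt_qq (x : E3) :
    HasFDerivAt qq ((2 * x 0) • pr 0 + (2 * x 1) • pr 1) x := by
  have h0 := (hasFDerivAt_pr 0 x).pow 2
  have h1 := (hasFDerivAt_pr 1 x).pow 2
  have h := h0.add h1
  refine h.congr_fderiv ?_
  ext v
  simp

theorem hasFDerivAt_r {x : E3} (hx : qq x ≠ 0) :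
    HasFDerivAt (fun y => √(qq y)) ((√(qq x))⁻¹ • (x 0 • pr 0 + x 1 • pr 1)) x := by
  refine ((hasFDerivAt_qq x).sqrt hx).congr_fderiv ?_
  ext v
  simp
  ring

theorem hasGradientAt_w0 {x : E3} (hx : qq x ≠ 0) : HasGradientAt w0 (G0 x) x := by
  have h := (hasFDerivAt_r hx).sub_const (√2)
  rw [hasGradientAt_iff_hasFDerivAt]
  refine h.congr_fderiv ?_
  ext v
  rw [InnerProductSpace.toDual_apply_apply, inner3]
  simp
  ring

theorem gradient_w0 {x : E3} (hx : qq x ≠ 0) : gradient w0 x = G0 x := (hasGradientAt_w0 hx).gradient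

/-- the Hessian -/
def HH (x : E3) : E3 →L[ℝ] E3 :=
  ((√(qq x) ^ 3)⁻¹ • ((x 1 ^ 2) • pr 0 - (x 0 * x 1) • pr 1)).smulRight
      (EuclideanSpace.single 0 (1 : ℝ)) +
    ((√(qq x) ^ 3)⁻¹ • ((x 0 ^ 2) • pr 1 - (x 0 * x 1) • pr 0)).smulRight
      (EuclideanSpace.single 1 (1 : ℝ))

theorem HH_zero (x v : E3) : HH x v 0 = (√(qq x) ^ 3)⁻¹ * (x 1 ^ 2 * v 0 - x 0 * x 1 * v 1) := by
  simp [HH]

theorem HH_one (x v : E3) : HH x v 1 = (√(qq x) ^ 3)⁻¹ * (x 0 ^ 2 * v 1 - x 0 * x 1 * v 0) := by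
  simp [HH]

theorem HH_two (x v : E3) : HH x v 2 = 0 := by
  simp [HH]

theorem hasFDerivAt_quot (i : Fin 3) {x : E3} (hx : qq x ≠ 0) :
    HasFDerivAt (fun y : E3 => y i / √(qq y))
      ((√(qq x))⁻¹ • pr i - (x i * (√(qq x) ^ 3)⁻¹) • (x 0 • pr 0 + x 1 • pr 1)) x := by
  have hq : 0 < qq x := lt_of_le_of_ne (by unfold qq; positivity) (Ne.symm hx)
  have hr : 0 < √(qq x) := Real.sqrt_pos.2 hq
  have h1 : HasFDerivAt (fun y : E3 => (√(qq y))⁻¹)
      (-(√(qq x) ^ 2)⁻¹ • ((√(qq x))⁻¹ • (x 0 • pr 0 + x 1 • pr 1))) x :=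
    (hasDerivAt_inv hr.ne').comp_hasFDerivAt x (hasFDerivAt_r hx)
  have h2 := (hasFDerivAt_pr i x).mul h1
  simp only [div_eq_mul_inv]
  refine h2.congr_fderiv ?_
  ext v
  simp
  ring

theorem hasFDerivAt_G0 {x : E3} (hx : qq x ≠ 0) : HasFDerivAt G0 (HH x) x := by
  have hq : 0 < qq x := lt_of_le_of_ne (by unfold qq; positivity) (Ne.symm hx)
  have hr : 0 < √(qq x) := Real.sqrt_pos.2 hq
  have hs : √(qq x) ^ 2 = x 0 ^ 2 + x 1 ^ 2 := Real.sq_sqrt hq.le
  rw [← hasFDerivWithinAt_univ, hasFDerivWithinAt_euclidean]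
  intro i
  rw [hasFDerivWithinAt_univ]
  fin_cases i
  · refine (hasFDerivAt_quot 0 hx).congr_fderiv ?_
    ext v
    have e := HH_zero x v
    simp
    rw [e]
    field_simp
    linear_combination (v 0) * hs
  · refine (hasFDerivAt_quot 1 hx).congr_fderiv ?_
    ext v
    have e := HH_one x v
    simp
    rw [e]
    field_simp
    linear_combination (v 1) * hs
  · refine (hasFDerivAt_const (0 : ℝ) x).congr_fderiv ?_
    ext v
    have e := HH_two x v
    simp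
    rw [e]

variable {w : E3 → ℝ} {x : E3}

theorem gradient_eventually (hx : qq x ≠ 0) (hw : w =ᶠ[𝓝 x] w0) :
    gradient w =ᶠ[𝓝 x] G0 := by
  have hc : ContinuousAt qq x := (hasFDerivAt_qq x).continuousAt
  filter_upwards [hw.eventuallyEq_nhds, hc.eventually_ne hx] with y h1 h2
  have h3 : HasGradientAt w (G0 y) y := by
    rw [hasGradientAt_iff_hasFDerivAt]
    exact ((hasGradientAt_iff_hasFDerivAt.1 (hasGradientAt_w0 h2))).congr_of_eventuallyEq h1
  exact h3.gradient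

/-- the gradient of the signed distance -/
theorem gradient_cyl (hx : qq x ≠ 0) (hw : w =ᶠ[𝓝 x] w0) : gradient w x = G0 x :=
  (gradient_eventually hx hw).eq_of_nhds

/-- the Hessian of the signed distance -/
theorem hess_cyl (hx : qq x ≠ 0) (hw : w =ᶠ[𝓝 x] w0) : fderiv ℝ (gradient w) x = HH x :=
  ((hasFDerivAt_G0 hx).congr_of_eventuallyEq (gradient_eventually hx hw)).fderiv

theorem trace3 (A : E3 →ₗ[ℝ] E3) : LinearMap.trace ℝ E3 A =
    A (EuclideanSpace.single 0 1) 0 + A (EuclideanSpace.single 1 1) 1 +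
      A (EuclideanSpace.single 2 1) 2 := by
  rw [LinearMap.trace_eq_sum_inner A (EuclideanSpace.basisFun (Fin 3) ℝ), Fin.sum_univ_three]
  rw [inner3, inner3, inner3]
  simp

theorem HH_comp (hx : qq x ≠ 0) (v : E3) : HH x (HH x v) = (√(qq x))⁻¹ • HH x v := by
  have hq : 0 < qq x := lt_of_le_of_ne (by unfold qq; positivity) (Ne.symm hx)
  have hr : 0 < √(qq x) := Real.sqrt_pos.2 hq
  have hs : √(qq x) ^ 2 = x 0 ^ 2 + x 1 ^ 2 := Real.sq_sqrt hq.le
  ext i
  fin_cases i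
  · simp only [Fin.zero_eta, Fin.isValue, HH_zero, HH_one, PiLp.smul_apply, smul_eq_mul]
    field_simp
    linear_combination (-(x 1 ^ 2 * v 0 - x 0 * x 1 * v 1)) * hs
  · simp only [Fin.mk_one, Fin.isValue, HH_zero, HH_one, PiLp.smul_apply, smul_eq_mul]
    field_simp
    linear_combination (-(x 0 ^ 2 * v 1 - x 0 * x 1 * v 0)) * hs
  · simp only [Fin.reduceFinMk, Fin.isValue, HH_two, PiLp.smul_apply, smul_eq_mul, mul_zero]

theorem trace_HH (hx : qq x ≠ 0) : LinearMap.trace ℝ E3 (HH x).toLinearMap = (√(qq x))⁻¹ := by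
  have hq : 0 < qq x := lt_of_le_of_ne (by unfold qq; positivity) (Ne.symm hx)
  have hr : 0 < √(qq x) := Real.sqrt_pos.2 hq
  have hs : √(qq x) ^ 2 = x 0 ^ 2 + x 1 ^ 2 := Real.sq_sqrt hq.le
  rw [trace3]
  simp only [ContinuousLinearMap.coe_coe, HH_zero, HH_one, HH_two]
  simp
  field_simp
  linear_combination (-1 : ℝ) * hs

end Vale.Agent.P218.CY.H326
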